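import Vale.Agent.Lib.P154.PChain.BH.R8_1

set_option linter.all false

namespace Vale.Agent.Lib.P154.PChain.BH.S8

open Vale.Agent.Lib.P154.Chain

set_option maxRecDepth 10000000 in
theorem hand_ok : handP g l4 hp wp 2132 10000000 Tp Tx Tz cp1 = true := by
  decide +kernel

end Vale.Agent.Lib.P154.PChain.BH.S8
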