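import Vale.Agent.Lib.P154.PChain.Tail
import Vale.Agent.Lib.P154.PChain.BH.H

set_option linter.all false

namespace Vale.Agent.Lib.P154.PChain.BH

open Vale.Agent.Lib.P154 Vale.Agent.Lib.P154.Neg Vale.Agent.Lib.P154.Chain

/-- the mean of the offspring -/
noncomputable def ds : ℝ := 43089 / 10000

/-- the size of the eigenvalue -/
noncomputable def ts : ℝ := 967 / 2000

theorem law_ok : LawOK (poissonLaw ds) g wp := by
  have h := lawOK_poisson (g := g) (wp := wp) (a := 43089) (b := 10000) (Un := 74358649439120) (Ud := 1000000000000) (by decide +kernel) (by decide +kernel) (by decide +kernel)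
    (by decide +kernel) (by decide +kernel) (by decide +kernel) (by decide +kernel) (by decide +kernel) (by decide +kernel)
  have e : (((43089 : ℕ) : ℝ) / ((10000 : ℕ) : ℝ)) = ds := by
    unfold ds
    norm_num
  rw [e] at h
  exact h

theorem inv_0 : PInv (poissonLaw ds) g l0 0 S0.cp0 := by
  rw [S0.start_ok]
  exact pinv_start S0.check_ok

theorem inv_r0_0 : PInv (poissonLaw ds) g l0 4 S0.rc0 := by
  have h := inv_runP (n := 0) (k := 4) S0.check_ok law_ok inv_0
  rw [S0.run_ok0] at h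
  exact h

theorem inv_s1 : PInv (poissonLaw ds) g l0 4 S1.cp0 := by
  have h : S1.cp0 = S0.rc0 := by
    decide +kernel
  rw [h]
  exact inv_r0_0

theorem inv_r1_0 : PInv (poissonLaw ds) g l1 5 S1.rc0 := by
  have h := inv_run1P (n := 4) S1.check_ok law_ok inv_s1
  rw [S1.run_ok0] at h
  exact h

theorem inv_s2 : PInv (poissonLaw ds) g l1 5 S2.cp0 := by
  have h : S2.cp0 = S1.rc0 := by
    decide +kernel
  rw [h]
  exact inv_r1_0

theorem inv_r2_0 : PInv (poissonLaw ds) g l1 8 S2.rc0 := by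
  have h := inv_runP (n := 5) (k := 3) S2.check_ok law_ok inv_s2
  rw [S2.run_ok0] at h
  exact h

theorem inv_r2_1 : PInv (poissonLaw ds) g l1 10 S2.rc1 := by
  have h := inv_runP (n := 8) (k := 2) S2.check_ok law_ok inv_r2_0
  rw [S2.run_ok1] at h
  exact h

theorem inv_s3 : PInv (poissonLaw ds) g l1 10 S3.cp0 := by
  have h : S3.cp0 = S2.rc1 := by
    decide +kernel
  rw [h]
  exact inv_r2_1

theorem inv_r3_0 : PInv (poissonLaw ds) g l2 11 S3.rc0 := by
  have h := inv_run1P (n := 10) S3.check_ok law_ok inv_s3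
  rw [S3.run_ok0] at h
  exact h

theorem inv_s4 : PInv (poissonLaw ds) g l2 11 S4.cp0 := by
  have h : S4.cp0 = S3.rc0 := by
    decide +kernel
  rw [h]
  exact inv_r3_0

theorem inv_r4_0 : PInv (poissonLaw ds) g l2 14 S4.rc0 := by
  have h := inv_runP (n := 11) (k := 3) S4.check_ok law_ok inv_s4
  rw [S4.run_ok0] at h
  exact h

theorem inv_r4_1 : PInv (poissonLaw ds) g l2 17 S4.rc1 := by
  have h := inv_runP (n := 14) (k := 3) S4.check_ok law_ok inv_r4_0
  rw [S4.run_ok1] at h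
  exact h

theorem inv_r4_2 : PInv (poissonLaw ds) g l2 20 S4.rc2 := by
  have h := inv_runP (n := 17) (k := 3) S4.check_ok law_ok inv_r4_1
  rw [S4.run_ok2] at h
  exact h

theorem inv_r4_3 : PInv (poissonLaw ds) g l2 23 S4.rc3 := by
  have h := inv_runP (n := 20) (k := 3) S4.check_ok law_ok inv_r4_2
  rw [S4.run_ok3] at h
  exact h

theorem inv_r4_4 : PInv (poissonLaw ds) g l2 26 S4.rc4 := by
  have h := inv_runP (n := 23) (k := 3) S4.check_ok law_ok inv_r4_3
  rw [S4.run_ok4] at h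
  exact h

theorem inv_s5 : PInv (poissonLaw ds) g l2 26 S5.cp0 := by
  have h : S5.cp0 = S4.rc4 := by
    decide +kernel
  rw [h]
  exact inv_r4_4

theorem inv_r5_0 : PInv (poissonLaw ds) g l3 27 S5.rc0 := by
  have h := inv_run1P (n := 26) S5.check_ok law_ok inv_s5
  rw [S5.run_ok0] at h
  exact h

theorem inv_s6 : PInv (poissonLaw ds) g l3 27 S6.cp0 := by
  have h : S6.cp0 = S5.rc0 := by
    decide +kernel
  rw [h]
  exact inv_r5_0

theorem inv_r6_0 : PInv (poissonLaw ds) g l3 30 S6.rc0 := by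
  have h := inv_runP (n := 27) (k := 3) S6.check_ok law_ok inv_s6
  rw [S6.run_ok0] at h
  exact h

theorem inv_r6_1 : PInv (poissonLaw ds) g l3 33 S6.rc1 := by
  have h := inv_runP (n := 30) (k := 3) S6.check_ok law_ok inv_r6_0
  rw [S6.run_ok1] at h
  exact h

theorem inv_r6_2 : PInv (poissonLaw ds) g l3 36 S6.rc2 := by
  have h := inv_runP (n := 33) (k := 3) S6.check_ok law_ok inv_r6_1
  rw [S6.run_ok2] at h
  exact h

theorem inv_r6_3 : PInv (poissonLaw ds) g l3 39 S6.rc3 := by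
  have h := inv_runP (n := 36) (k := 3) S6.check_ok law_ok inv_r6_2
  rw [S6.run_ok3] at h
  exact h

theorem inv_r6_4 : PInv (poissonLaw ds) g l3 42 S6.rc4 := by
  have h := inv_runP (n := 39) (k := 3) S6.check_ok law_ok inv_r6_3
  rw [S6.run_ok4] at h
  exact h

theorem inv_r6_5 : PInv (poissonLaw ds) g l3 45 S6.rc5 := by
  have h := inv_runP (n := 42) (k := 3) S6.check_ok law_ok inv_r6_4
  rw [S6.run_ok5] at h
  exact h

theorem inv_r6_6 : PInv (poissonLaw ds) g l3 48 S6.rc6 := by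
  have h := inv_runP (n := 45) (k := 3) S6.check_ok law_ok inv_r6_5
  rw [S6.run_ok6] at h
  exact h

theorem inv_r6_7 : PInv (poissonLaw ds) g l3 51 S6.rc7 := by
  have h := inv_runP (n := 48) (k := 3) S6.check_ok law_ok inv_r6_6
  rw [S6.run_ok7] at h
  exact h

theorem inv_r6_8 : PInv (poissonLaw ds) g l3 54 S6.rc8 := by
  have h := inv_runP (n := 51) (k := 3) S6.check_ok law_ok inv_r6_7
  rw [S6.run_ok8] at h
  exact h

theorem inv_r6_9 : PInv (poissonLaw ds) g l3 57 S6.rc9 := by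
  have h := inv_runP (n := 54) (k := 3) S6.check_ok law_ok inv_r6_8
  rw [S6.run_ok9] at h
  exact h

theorem inv_r6_10 : PInv (poissonLaw ds) g l3 60 S6.rc10 := by
  have h := inv_runP (n := 57) (k := 3) S6.check_ok law_ok inv_r6_9
  rw [S6.run_ok10] at h
  exact h

theorem inv_r6_11 : PInv (poissonLaw ds) g l3 63 S6.rc11 := by
  have h := inv_runP (n := 60) (k := 3) S6.check_ok law_ok inv_r6_10
  rw [S6.run_ok11] at h
  exact h

theorem inv_r6_12 : PInv (poissonLaw ds) g l3 66 S6.rc12 := by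
  have h := inv_runP (n := 63) (k := 3) S6.check_ok law_ok inv_r6_11
  rw [S6.run_ok12] at h
  exact h

theorem inv_r6_13 : PInv (poissonLaw ds) g l3 69 S6.rc13 := by
  have h := inv_runP (n := 66) (k := 3) S6.check_ok law_ok inv_r6_12
  rw [S6.run_ok13] at h
  exact h

theorem inv_r6_14 : PInv (poissonLaw ds) g l3 72 S6.rc14 := by
  have h := inv_runP (n := 69) (k := 3) S6.check_ok law_ok inv_r6_13
  rw [S6.run_ok14] at h
  exact h

theorem inv_r6_15 : PInv (poissonLaw ds) g l3 75 S6.rc15 := by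
  have h := inv_runP (n := 72) (k := 3) S6.check_ok law_ok inv_r6_14
  rw [S6.run_ok15] at h
  exact h

theorem inv_r6_16 : PInv (poissonLaw ds) g l3 76 S6.rc16 := by
  have h := inv_runP (n := 75) (k := 1) S6.check_ok law_ok inv_r6_15
  rw [S6.run_ok16] at h
  exact h

theorem inv_s7 : PInv (poissonLaw ds) g l3 76 S7.cp0 := by
  have h : S7.cp0 = S6.rc16 := by
    decide +kernel
  rw [h]
  exact inv_r6_16

theorem inv_r7_0 : PInv (poissonLaw ds) g l4 77 S7.rc0 := by
  have h := inv_run1P (n := 76) S7.check_ok law_ok inv_s7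
  rw [S7.run_ok0] at h
  exact h

theorem inv_s8 : PInv (poissonLaw ds) g l4 77 S8.cp0 := by
  have h : S8.cp0 = S7.rc0 := by
    decide +kernel
  rw [h]
  exact inv_r7_0

theorem inv_r8_0 : PInv (poissonLaw ds) g l4 79 S8.rc0 := by
  have h := inv_runP (n := 77) (k := 2) S8.check_ok law_ok inv_s8
  rw [S8.run_ok0] at h
  exact h

theorem inv_r8_1 : PInv (poissonLaw ds) g l4 81 S8.rc1 := by
  have h := inv_runP (n := 79) (k := 2) S8.check_ok law_ok inv_r8_0
  rw [S8.run_ok1] at h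
  exact h

theorem inv_r8_2 : PInv (poissonLaw ds) g l4 83 S8.rc2 := by
  have h := inv_runP (n := 81) (k := 2) S8.check_ok law_ok inv_r8_1
  rw [S8.run_ok2] at h
  exact h

theorem inv_r8_3 : PInv (poissonLaw ds) g l4 85 S8.rc3 := by
  have h := inv_runP (n := 83) (k := 2) S8.check_ok law_ok inv_r8_2
  rw [S8.run_ok3] at h
  exact h

theorem inv_r8_4 : PInv (poissonLaw ds) g l4 87 S8.rc4 := by
  have h := inv_runP (n := 85) (k := 2) S8.check_ok law_ok inv_r8_3
  rw [S8.run_ok4] at h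
  exact h

theorem inv_r8_5 : PInv (poissonLaw ds) g l4 89 S8.rc5 := by
  have h := inv_runP (n := 87) (k := 2) S8.check_ok law_ok inv_r8_4
  rw [S8.run_ok5] at h
  exact h

theorem inv_r8_6 : PInv (poissonLaw ds) g l4 91 S8.rc6 := by
  have h := inv_runP (n := 89) (k := 2) S8.check_ok law_ok inv_r8_5
  rw [S8.run_ok6] at h
  exact h

theorem inv_r8_7 : PInv (poissonLaw ds) g l4 93 S8.rc7 := by
  have h := inv_runP (n := 91) (k := 2) S8.check_ok law_ok inv_r8_6
  rw [S8.run_ok7] at h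
  exact h

theorem inv_r8_8 : PInv (poissonLaw ds) g l4 95 S8.rc8 := by
  have h := inv_runP (n := 93) (k := 2) S8.check_ok law_ok inv_r8_7
  rw [S8.run_ok8] at h
  exact h

theorem inv_r8_9 : PInv (poissonLaw ds) g l4 97 S8.rc9 := by
  have h := inv_runP (n := 95) (k := 2) S8.check_ok law_ok inv_r8_8
  rw [S8.run_ok9] at h
  exact h

theorem inv_r8_10 : PInv (poissonLaw ds) g l4 99 S8.rc10 := by
  have h := inv_runP (n := 97) (k := 2) S8.check_ok law_ok inv_r8_9
  rw [S8.run_ok10] at h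
  exact h

theorem inv_r8_11 : PInv (poissonLaw ds) g l4 101 S8.rc11 := by
  have h := inv_runP (n := 99) (k := 2) S8.check_ok law_ok inv_r8_10
  rw [S8.run_ok11] at h
  exact h

theorem inv_r8_12 : PInv (poissonLaw ds) g l4 103 S8.rc12 := by
  have h := inv_runP (n := 101) (k := 2) S8.check_ok law_ok inv_r8_11
  rw [S8.run_ok12] at h
  exact h

theorem inv_r8_13 : PInv (poissonLaw ds) g l4 105 S8.rc13 := by
  have h := inv_runP (n := 103) (k := 2) S8.check_ok law_ok inv_r8_12
  rw [S8.run_ok13] at h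
  exact h

theorem inv_e : PInv (poissonLaw ds) g l4 105 S8.cp1 := by
  have h : S8.cp1 = S8.rc13 := by
    decide +kernel
  rw [h]
  exact inv_r8_13

theorem hand : ∃ A : FF, A.Good ∧ (∀ G, Sublin G → Symm G → PhiE (gwEx (poissonLaw ds) (lamOf g) (105 + 1)) G ≤ val A.F G)
      ∧ InClass ((hp.kapN : ℝ) / hp.kapD) ((hp.bpN : ℝ) / hp.bpD) ((hp.bmN : ℝ) / hp.bmD) (famEx A.F)
          ((hp.Mn : ℝ) / hp.Md) ∧ famEx A.F I2cb ≤ ((2132 : ℕ) : ℝ) / ((10000000 : ℕ) : ℝ) :=
  handoffP S8.check_ok law_ok inv_e (by decide +kernel) (by decide +kernel) (by decide +kernel)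
    (by decide +kernel) (by decide +kernel) S8.hand_ok

/-- what the chain gives -/
theorem box : BoxOK (43089 / 10000) (967 / 2000) (29167 / 1000000) (230 / 100) (97 / 100) (1 / 1) (2132 / 10000000) := by
  obtain ⟨A, h1, h2, h3, h4⟩ := hand
  have el : lamOf g = -((967 : ℝ) / 2000) := by
    have e : lamOf g = -((g.ln : ℝ) / g.ld) := rfl
    rw [e]
    norm_num [g]
  have e1 : ((hp.kapN : ℝ) / hp.kapD) = 230 / 100 := by norm_num [hp]
  have e2 : ((hp.bpN : ℝ) / hp.bpD) = 97 / 100 := by norm_num [hp]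
  have e3 : ((hp.bmN : ℝ) / hp.bmD) = 1 / 1 := by norm_num [hp]
  have e4 : ((hp.Mn : ℝ) / hp.Md) = 29167 / 1000000 := by norm_num [hp]
  have e5 : (((2132 : ℕ) : ℝ) / ((10000000 : ℕ) : ℝ)) = 2132 / 10000000 := by norm_num
  rw [el] at h2
  rw [e1, e2, e3, e4] at h3
  rw [e5] at h4
  exact ⟨105 + 1, A, h1, h2, h3, h4⟩

end Vale.Agent.Lib.P154.PChain.BH
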